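import Vale.Agent.Lib.P329.Nil3c

namespace Vale.Agent.Results.P329.ANilpotentClassThree

open Vale.Agent.Lib.P329

/-- Every language recognized by a finite nilpotent group of nilpotency class at most three has
generalized star height at most one. -/
theorem result (G : Type) [Group G] [Finite G] [Group.IsNilpotent G]
    (hG : Group.nilpotencyClass G ≤ 3)
    (α : Type) [Finite α] (φ : α → G) (S : Set G) :
    ∃ e : GRE α, e.sh ≤ 1 ∧ ∀ w : List α, w ∈ e.lang ↔ (w.map φ).prod ∈ S := by
  classical
  exact cl3_HT (cl3_of_lcs (Subgroup.lowerCentralSeries_eq_bot_iff_nilpotencyClass_le.mpr hG)) φ S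

end Vale.Agent.Results.P329.ANilpotentClassThree
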