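import Vale.Agent.Lib.P329.Sub3b

namespace Vale.Agent.Results.P329.AScatteredSubwordThree

open Vale.Agent.Lib.P329

/-- Counting scattered subwords of length at most three modulo `n`: for every word `u` of length at
most three, every modulus `n ≥ 1` and every residue `r`, the set of all words `w` in which the
number of occurrences of `u` as a scattered subword (the number of sublists of `w` equal to `u`,
counted with multiplicity) is congruent to `r` modulo `n` has generalized star height at most
one. -/
theorem result (α : Type) [Finite α] [DecidableEq α] (u : List α) (hu : u.length ≤ 3)
    (n : ℕ) (hn : n ≠ 0) (r : ℕ) :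
    ∃ e : GRE α, e.sh ≤ 1 ∧
      ∀ w : List α, w ∈ e.lang ↔ (List.sublists w).count u ≡ r [MOD n] :=
  sc_HT u hu n hn r

end Vale.Agent.Results.P329.AScatteredSubwordThree
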