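import Vale.Agent.Lib.P329.Quot

namespace Vale.Agent.Results.P329.OldAbelianByElementary

open Vale.Agent.Lib.P329

/-- Every language recognized by a finite group `G` that has an abelian normal subgroup `A` whose
quotient `G / A` is an elementary abelian `p`-group (`p` any prime) has generalized star height at
most one. -/
theorem result (p : ℕ) (hp : p.Prime) (G : Type) [Group G] [Finite G] (A : Subgroup G) [A.Normal]
    (hA : ∀ a ∈ A, ∀ b ∈ A, a * b = b * a)
    (hq : ∀ g h : G, g * h * g⁻¹ * h⁻¹ ∈ A) (hpow : ∀ g : G, g ^ p ∈ A)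
    (α : Type) [Finite α] (φ : α → G) (S : Set G) :
    ∃ e : GRE α, e.sh ≤ 1 ∧ ∀ w : List α, w ∈ e.lang ↔ (w.map φ).prod ∈ S := by
  classical
  have : Fact p.Prime := ⟨hp⟩
  obtain ⟨k, lev, hmul, hsurj, hker⟩ := exists_lev (p := p) A hq hpow
  exact lev_HT k lev hmul hsurj
    (fun a b ha hb => hA a ((hker a).mp ha) b ((hker b).mp hb)) φ S

end Vale.Agent.Results.P329.OldAbelianByElementary
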