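import Vale.Agent.Lib.P329.Quot

namespace Vale.Agent.Results.P329.PrimeIndexAbelian

open Vale.Agent.Lib.P329

/-- Every language recognized by a finite group `G` that has an abelian normal subgroup of prime
index has generalized star height at most one. -/
theorem result (G : Type) [Group G] [Finite G] (A : Subgroup G) [A.Normal]
    (hA : ∀ a ∈ A, ∀ b ∈ A, a * b = b * a) (hp : A.index.Prime)
    (α : Type) [Finite α] (φ : α → G) (S : Set G) :
    ∃ e : GRE α, e.sh ≤ 1 ∧ ∀ w : List α, w ∈ e.lang ↔ (w.map φ).prod ∈ S := by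
  classical
  have : Fact A.index.Prime := ⟨hp⟩
  have hcyc : IsCyclic (G ⧸ A) := isCyclic_of_prime_card (p := A.index) rfl
  have hq : ∀ g h : G, g * h * g⁻¹ * h⁻¹ ∈ A := by
    intro g h
    rw [← QuotientGroup.eq_one_iff]
    simp only [QuotientGroup.mk_mul, QuotientGroup.mk_inv]
    have hc : ∀ a b : G ⧸ A, a * b = b * a := fun a b => (IsCyclic.commGroup (α := G ⧸ A)).mul_comm a b
    rw [hc (g : G ⧸ A) h]
    group
  obtain ⟨k, lev, hmul, hsurj, hker⟩ := exists_lev (p := A.index) A hq (fun g => A.pow_index_mem g)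
  exact lev_HT k lev hmul hsurj
    (fun a b ha hb => hA a ((hker a).mp ha) b ((hker b).mp hb)) φ S

end Vale.Agent.Results.P329.PrimeIndexAbelian
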