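import Vale.Agent.Lib.P329.Subdirect

namespace Vale.Agent.Results.P329.SubdirectAbelianByElem

open Vale.Agent.Lib.P329

/-- Let `G` be a finite group with finitely many normal subgroups `A i` such that every quotient
`G / A i` is an elementary abelian `p i`-group (`p i` prime, the primes may differ) and the
commutator subgroups `[A i, A i]` intersect trivially.  Then every language recognized by `G` has
generalized star height at most one. -/
theorem result (G : Type) [Group G] [Finite G] (ι : Type) [Finite ι] (p : ι → ℕ)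
    (hp : ∀ i, (p i).Prime) (A : ι → Subgroup G) (hn : ∀ i, (A i).Normal)
    (hq : ∀ i, ∀ g h : G, g * h * g⁻¹ * h⁻¹ ∈ A i) (hpow : ∀ i, ∀ g : G, g ^ p i ∈ A i)
    (hsep : ∀ g : G, (∀ i, g ∈ ⁅A i, A i⁆) → g = 1)
    (α : Type) [Finite α] (φ : α → G) (S : Set G) :
    ∃ e : GRE α, e.sh ≤ 1 ∧ ∀ w : List α, w ∈ e.lang ↔ (w.map φ).prod ∈ S :=
  subdirect_HT G ι p hp A hn hq hpow hsep α φ S

end Vale.Agent.Results.P329.SubdirectAbelianByElem
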